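import Vale.Agent.FK.Final2
import Vale.Agent.FK.Russo

/-!
# The Friedgut-Kalai threshold-width conjecture (P063, questions Q1 and Q2)

For every `r ≥ 2` and every `0 < ε < 1/2` there is a constant `C` such that every nontrivial
increasing `r`-uniform hypergraph property on `n` vertices has threshold width at most
`C (log n)^(-r/(r-1))`; in particular `C (log n)^(-2)` for graph properties.
-/

namespace Vale.Agent.Results.P063.ThresholdWidth

open Finset

/-- The possible edges of an `r`-uniform hypergraph on `[n]`: the `r`-element subsets. -/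
abbrev Edges (n r : ℕ) : Type := {e : Finset (Fin n) // e.card = r}

/-- The image of an edge under a permutation of the vertices. -/
def move {n r : ℕ} (σ : Equiv.Perm (Fin n)) (e : Edges n r) : Edges n r :=
  ⟨e.1.map σ.toEmbedding, by rw [Finset.card_map]; exact e.2⟩

/-- A point `x : Edges n r → Bool` is the hypergraph whose edges are the `e` with `x e = true`.
A hypergraph property is a set of hypergraphs invariant under all vertex permutations. -/
def IsProperty {n r : ℕ} (P : Set (Edges n r → Bool)) : Prop :=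
  ∀ (σ : Equiv.Perm (Fin n)) (x : Edges n r → Bool), x ∈ P ↔ (fun e => x (move σ e)) ∈ P

/-- Adding edges preserves membership. -/
def IsIncreasing {n r : ℕ} (P : Set (Edges n r → Bool)) : Prop :=
  ∀ x y : Edges n r → Bool, (∀ e, x e = true → y e = true) → x ∈ P → y ∈ P

open Classical in
/-- The probability that the random hypergraph, each edge present independently with
probability `p`, lies in `P`. -/
noncomputable def mu {n r : ℕ} (p : ℝ) (P : Set (Edges n r → Bool)) : ℝ :=
  ∑ x : Edges n r → Bool, if x ∈ P then ∏ e, (if x e = true then p else 1 - p) else 0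

/-- `p_a(P) = inf {p ∈ [0,1] : mu_p(P) ≥ a}`. -/
noncomputable def thr {n r : ℕ} (P : Set (Edges n r → Bool)) (a : ℝ) : ℝ :=
  sInf {p : ℝ | 0 ≤ p ∧ p ≤ 1 ∧ a ≤ mu p P}

/-- The threshold width `w_ε(P) = p_{1-ε}(P) - p_ε(P)`. -/
noncomputable def width {n r : ℕ} (ε : ℝ) (P : Set (Edges n r → Bool)) : ℝ :=
  thr P (1 - ε) - thr P ε

theorem mu_eq {n r : ℕ} (p : ℝ) (P : Set (Edges n r → Bool)) :
    mu p P = Vale.Agent.FK.mu p P := by
  classical
  unfold mu Vale.Agent.FK.mu Vale.Agent.FK.ex
  refine Finset.sum_congr rfl fun x _ => ?_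
  rw [Set.indicator_apply]
  split_ifs
  · rw [mul_one]; rfl
  · rw [mul_zero]

theorem width_le_one {n r : ℕ} (P : Set (Edges n r → Bool)) (hinc : IsIncreasing P)
    (hne : P.Nonempty) (ε : ℝ) (h0 : 0 < ε) : width ε P ≤ 1 := by
  classical
  have h1 : thr P (1 - ε) ≤ 1 := by
    refine csInf_le ⟨0, fun p hp => hp.1⟩ ⟨zero_le_one, le_rfl, ?_⟩
    have hmem : (fun _ => true : Edges n r → Bool) ∈ P := by
      obtain ⟨x, hx⟩ := hne
      exact hinc x _ (fun e _ => rfl) hx
    have : (1 : ℝ) ≤ mu 1 P := by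
      unfold mu
      have h2 : (if (fun _ => true : Edges n r → Bool) ∈ P then
          ∏ e : Edges n r, (if (fun _ => true : Edges n r → Bool) e = true then (1 : ℝ) else 1 - 1)
          else 0) = 1 := by
        rw [if_pos hmem]
        simp
      calc (1 : ℝ) = _ := h2.symm
        _ ≤ _ := Finset.single_le_sum (f := fun x : Edges n r → Bool =>
            if x ∈ P then ∏ e, (if x e = true then (1 : ℝ) else 1 - 1) else 0)
            (fun x _ => by
              split_ifs
              · refine Finset.prod_nonneg fun e _ => ?_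
                split_ifs <;> norm_num
              · exact le_refl _) (Finset.mem_univ _)
    linarith
  have h2 : 0 ≤ thr P ε := Real.sInf_nonneg fun p hp => hp.1
  unfold width
  linarith

/-- The uniform statement for all `r ≥ 2`. -/
theorem main (r : ℕ) (hr : 2 ≤ r) (ε : ℝ) (h0 : 0 < ε) (h1 : ε < 1 / 2) :
    ∃ C : ℝ, 0 < C ∧ ∀ n : ℕ, r ≤ n → ∀ P : Set (Edges n r → Bool),
      IsProperty P → IsIncreasing P → P.Nonempty → P ≠ Set.univ →
      width ε P ≤ C * (Real.log n) ^ (-((r : ℝ) / ((r : ℝ) - 1))) := by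
  classical
  obtain ⟨c, hc, n₀, hn₀⟩ := Vale.Agent.FK.infl_lower r hr (ε * (1 - ε)) (mul_pos h0 (by linarith))
  have hrR : (2 : ℝ) ≤ r := by exact_mod_cast hr
  set a := (r : ℝ) / ((r : ℝ) - 1) with ha
  have ha0 : 0 < a := by rw [ha]; apply div_pos <;> linarith
  have hlog0 : 0 < Real.log ((n₀ : ℝ) + 2) :=
    Real.log_pos (by have : (0 : ℝ) ≤ n₀ := Nat.cast_nonneg _; linarith)
  refine ⟨max (1 / c) (Real.log ((n₀ : ℝ) + 2) ^ a), lt_max_of_lt_left (by positivity),
    fun n hn P hP hinc hne hnu => ?_⟩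
  have hn2 : (2 : ℝ) ≤ n := by exact_mod_cast hr.trans hn
  have hln : 0 < Real.log n := Real.log_pos (by linarith)
  have hpos : 0 < Real.log n ^ (-a) := Real.rpow_pos_of_pos hln _
  rcases le_or_gt n₀ n with hle | hgt
  · have hw := Vale.Agent.FK.width_le n r P hinc hne hnu ε h0 h1 (c * Real.log n ^ a)
      (by positivity) (fun p hp0 hp1 hm1 hm2 => by
        refine hn₀ n hle p hp0 hp1 (Set.indicator P (fun _ => 1)) (fun x => ?_) (fun σ x => ?_) ?_
        · by_cases hx : x ∈ P
          · right; rw [Set.indicator_of_mem hx]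
          · left; rw [Set.indicator_of_notMem hx]
        · have h3 : x ∈ P ↔ (fun e => x (Vale.Agent.FK.pe σ e)) ∈ P := hP σ x
          by_cases hx : x ∈ P
          · rw [Set.indicator_of_mem hx, Set.indicator_of_mem (h3.1 hx)]
          · rw [Set.indicator_of_notMem hx, Set.indicator_of_notMem (fun h => hx (h3.2 h))]
        · change ε * (1 - ε) ≤ Vale.Agent.FK.mu p P * (1 - Vale.Agent.FK.mu p P)
          nlinarith)
    have hw' : width ε P ≤ 1 / (c * Real.log n ^ a) := by
      unfold width thr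
      simp only [mu_eq]
      exact hw
    calc width ε P ≤ 1 / (c * Real.log n ^ a) := hw'
      _ = 1 / c * Real.log n ^ (-a) := by rw [Real.rpow_neg hln.le]; field_simp
      _ ≤ _ := mul_le_mul_of_nonneg_right (le_max_left _ _) hpos.le
  · have hle : Real.log n ≤ Real.log ((n₀ : ℝ) + 2) := by
      apply Real.log_le_log (by linarith)
      have : (n : ℝ) ≤ n₀ := by exact_mod_cast hgt.le
      linarith
    calc width ε P ≤ 1 := width_le_one P hinc hne ε h0
      _ = Real.log n ^ a * Real.log n ^ (-a) := by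
          rw [← Real.rpow_add hln, add_neg_cancel, Real.rpow_zero]
      _ ≤ Real.log ((n₀ : ℝ) + 2) ^ a * Real.log n ^ (-a) :=
          mul_le_mul_of_nonneg_right (Real.rpow_le_rpow hln.le hle ha0.le) hpos.le
      _ ≤ _ := mul_le_mul_of_nonneg_right (le_max_right _ _) hpos.le

/-- **The Friedgut-Kalai threshold-width conjecture**, for graph properties (first part, question
Q1) and for `r`-uniform hypergraph properties (second part, question Q2). -/
theorem result :
    (∀ ε : ℝ, 0 < ε → ε < 1 / 2 → ∃ C : ℝ, 0 < C ∧ ∀ n : ℕ, 2 ≤ n →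
      ∀ P : Set (Edges n 2 → Bool), IsProperty P → IsIncreasing P → P.Nonempty → P ≠ Set.univ →
        width ε P ≤ C / (Real.log n) ^ 2) ∧
    (∀ r : ℕ, 2 ≤ r → ∀ ε : ℝ, 0 < ε → ε < 1 / 2 → ∃ C : ℝ, 0 < C ∧ ∀ n : ℕ, r ≤ n →
      ∀ P : Set (Edges n r → Bool), IsProperty P → IsIncreasing P → P.Nonempty → P ≠ Set.univ →
        width ε P ≤ C * (Real.log n) ^ (-((r : ℝ) / ((r : ℝ) - 1)))) := by
  refine ⟨fun ε h0 h1 => ?_, fun r hr ε h0 h1 => main r hr ε h0 h1⟩
  obtain ⟨C, hC, h⟩ := main 2 le_rfl ε h0 h1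
  refine ⟨C, hC, fun n hn P hP hinc hne hnu => ?_⟩
  refine (h n hn P hP hinc hne hnu).trans (le_of_eq ?_)
  have hn2 : (2 : ℝ) ≤ n := by exact_mod_cast hn
  have hln : 0 < Real.log n := Real.log_pos (by linarith)
  have h2 : -(((2 : ℕ) : ℝ) / (((2 : ℕ) : ℝ) - 1)) = -((2 : ℕ) : ℝ) := by norm_num
  rw [h2, Real.rpow_neg hln.le, Real.rpow_natCast, div_eq_mul_inv]

end Vale.Agent.Results.P063.ThresholdWidth
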